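import Vale.Agent.P207.N4.Dim
import Vale.Agent.P207.N7.H709.T2h
import Vale.Agent.P207.N7.H469.T2n
import Vale.Agent.P207.N7.H790.T2a

/-!
# P207: the function `D` at the crossings, and the inverse form of the crossings

`H469.DeltaP`, `H790.KqB`, `H790.HqB`.
-/

set_option linter.unusedSectionVars false

open Set Filter Topology Metric
open scoped ContDiff

noncomputable section

namespace Vale.Agent.P207.N4.Y.H709

open Vale.Agent.P207.N4.H709

open Vale.Agent.P207.N3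

variable [Dim]

variable {Γ X B : Type} [Group Γ] [MetricSpace X] [ProperSpace X] [MulAction Γ X]
  [IsIsometricSMul Γ X] [TopologicalSpace B] [CompactSpace B] [T2Space B] [MulAction Γ B]
  [ContinuousConstSMul Γ B] {L : Leaf Γ X B} [MeasurableSpace B] [BorelSpace B] {V : Type}
  [NormedAddCommGroup V] [NormedSpace ℝ V] [FiniteDimensional ℝ V]

variable (P : Pic L V)

/-- `D ξ η` is the value of `b_ξ + b_η` at the crossing -/
theorem D_cross (x : X) (ξ : B) {q : E2} (hT : (x, q) ∈ P.Af.dT) {η : B}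
    (h : P.Th x ξ q = η) : P.S.A.D ξ η = P.Bu.b ξ x + P.Bu.b η x + P.Sq x ξ η q := by
  obtain ⟨z, h1, h2, h3⟩ := P.Bu.exists_fr x ξ (P.Af.dsc x q) (P.Af.dsc_mem hT)
  have h4 : P.Bu.en x ξ (P.Af.dsc x q) = η := h
  have h5 := P.S.A.D_eq z
  have h6 : L.lv z + L.lp z = P.Bu.b (L.em z) z + P.Bu.b (L.ep z) z := by
    rw [P.Bu.b_em, P.Bu.b_ep]
  rw [h6, h1, h2, h4, h3, h3] at h5
  rw [h5]
  change _ = P.Bu.b ξ x + P.Bu.b η x + (P.Bu.be x ξ (P.Af.dsc x q) + P.Bu.be x η (P.Af.dsc x q))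
  ring

/-- a uniform bound of the Hessians of the Busemann functions, affine coordinate -/
theorem exists_hb : ∃ M, 0 ≤ M ∧ ∀ x ξ, ∀ q ∈ closedBall (0 : E2) 2,
    ‖hess (P.bq x ξ) q‖ ≤ M := by
  obtain ⟨M, hM⟩ := Leaf.bndB L (hess_jc (bq_jc P)) (fun g x ξ q hq => by
    refine hess_congr ?_
    filter_upwards [slice_dT P x hq] with t ht using bq_smul P g x ξ ht)
    (isCompact_closedBall (0 : E2) 2) (fun x ξ q hq => P.Af.closedBall_dT x hq) 0
  refine ⟨max M 0, le_max_right _ _, fun x ξ q hq => ?_⟩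
  have h1 := hM x ξ q hq
  rw [norm_iteratedFDeriv_zero] at h1
  exact h1.trans (le_max_left _ _)

/-- the sum of the Busemann functions near its critical point -/
theorem Sq_le {M : ℝ} (hM : ∀ x ξ, ∀ q ∈ closedBall (0 : E2) 2, ‖hess (P.bq x ξ) q‖ ≤ M)
    (x : X) (ξ η : B) {q q' : E2} (hq : q ∈ closedBall (0 : E2) 2)
    (hq' : q' ∈ closedBall (0 : E2) 2) (h : gradient (P.Sq x ξ η) q' = 0) :
    |P.Sq x ξ η q - P.Sq x ξ η q'| ≤ 2 * M * ‖q - q'‖ ^ 2 := by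
  have hseg : segment ℝ q' q ⊆ closedBall (0 : E2) 2 :=
    (convex_closedBall _ _).segment_subset hq' hq
  have hgr : ∀ w ∈ closedBall (0 : E2) 2, gradient (P.Sq x ξ η) w =
      gradient (P.bq x ξ) w + gradient (P.bq x η) w := fun w hw =>
    gradient_add' ((bq_contDiffAt P x ξ (P.Af.closedBall_dT x hw)).differentiableAt (by simp))
      ((bq_contDiffAt P x η (P.Af.closedBall_dT x hw)).differentiableAt (by simp))
  have hlip : ∀ ζ, ∀ w ∈ closedBall (0 : E2) 2,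
      ‖gradient (P.bq x ζ) w - gradient (P.bq x ζ) q'‖ ≤ M * ‖w - q'‖ := fun ζ w hw =>
    (convex_closedBall (0 : E2) 2).norm_image_sub_le_of_norm_fderiv_le (f := gradient (P.bq x ζ))
      (fun w hw => hess_diff (bq_contDiffAt P x ζ (P.Af.closedBall_dT x hw)))
      (fun w hw => hM x ζ w hw) hq' hw
  have hM0 : 0 ≤ M := (norm_nonneg _).trans (hM x ξ q hq)
  have hb : ∀ w ∈ segment ℝ q' q, ‖fderiv ℝ (P.Sq x ξ η) w‖ ≤ 2 * M * ‖q - q'‖ := by
    intro w hw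
    have hw2 := hseg hw
    rw [← norm_gradient]
    have h1 : gradient (P.Sq x ξ η) w = (gradient (P.bq x ξ) w - gradient (P.bq x ξ) q') +
        (gradient (P.bq x η) w - gradient (P.bq x η) q') := by
      rw [hgr w hw2]
      rw [hgr q' hq'] at h
      have h2 : gradient (P.bq x ξ) w - gradient (P.bq x ξ) q' +
          (gradient (P.bq x η) w - gradient (P.bq x η) q') =
          gradient (P.bq x ξ) w + gradient (P.bq x η) w -
            (gradient (P.bq x ξ) q' + gradient (P.bq x η) q') := by abel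
      rw [h2, h, sub_zero]
    have h3 : ‖w - q'‖ ≤ ‖q - q'‖ := norm_sub_le_of_mem_segment hw
    rw [h1]
    calc _ ≤ M * ‖w - q'‖ + M * ‖w - q'‖ := (norm_add_le _ _).trans
          (add_le_add (hlip ξ w hw2) (hlip η w hw2))
      _ ≤ M * ‖q - q'‖ + M * ‖q - q'‖ := by gcongr
      _ = _ := by ring
  have h4 := (convex_segment q' q).norm_image_sub_le_of_norm_fderiv_le (f := P.Sq x ξ η)
    (fun w hw => (Sq_contDiffAt P x ξ η (P.Af.closedBall_dT x (hseg hw))).differentiableAt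
      (by simp)) hb (left_mem_segment ℝ q' q) (right_mem_segment ℝ q' q)
  rw [Real.norm_eq_abs] at h4
  calc _ ≤ 2 * M * ‖q - q'‖ * ‖q - q'‖ := h4
    _ = _ := by ring

/-- **DELTA, first order** -/
theorem deltaP : H469.DeltaP P := by
  obtain ⟨ε, hε, K, hK, h⟩ := exists_hq P (ε := 1) one_pos
  obtain ⟨M, hM, hM'⟩ := exists_hb P
  refine ⟨ε, hε, 2 * M * K ^ 2, by positivity, fun x ξ hN q hq => ?_⟩
  have hq74 : q ∈ closedBall (0 : E2) (7 / 4) :=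
    ball_subset_closedBall (ball_subset_ball (by norm_num) hq)
  have hq2 : q ∈ closedBall (0 : E2) 2 := closedBall_subset_closedBall (by norm_num) hq74
  obtain ⟨h1, h2, -, -, h5, -⟩ := h x ξ hN q hq74
  have h1' := ball_subset_closedBall h1
  have hT := P.Af.closedBall_dT x hq2
  have hT' := P.Af.closedBall_dT x h1'
  have e1 := D_cross P x ξ hT' h2
  have e2 := D_cross P x (L.em x) hT (Th_em P x hT)
  have e3 := Sq_eq P x ξ (P.Af.pt x q) q
  have e4 := Sq_le P hM' x ξ (P.Af.pt x q) hq2 h1' (Sq_grad P x ξ hT' h2)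
  rw [e1, e2]
  have e5 : P.Bu.b ξ x + P.Bu.b (P.Af.pt x q) x + P.Sq x ξ (P.Af.pt x q) (P.Hq x ξ q) -
      (P.Bu.b (L.em x) x + P.Bu.b (P.Af.pt x q) x + P.Sq x (L.em x) (P.Af.pt x q) q) -
      (P.Bu.b ξ x - P.Bu.b (L.em x) x) - P.dl x ξ q =
      -(P.Sq x ξ (P.Af.pt x q) q - P.Sq x ξ (P.Af.pt x q) (P.Hq x ξ q)) := by
    rw [e3]
    ring
  rw [e5, abs_neg]
  calc _ ≤ 2 * M * ‖q - P.Hq x ξ q‖ ^ 2 := e4
    _ = 2 * M * ‖P.Hq x ξ q - q‖ ^ 2 := by rw [norm_sub_rev]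
    _ ≤ 2 * M * (K * ‖P.gr x ξ q‖) ^ 2 := by gcongr
    _ = _ := by ring

/-- the gradient on the unit ball, from `T2d` -/
theorem gr_le {ε₀ : ℝ} (hd : P.T2d ε₀) : ∃ H, 0 ≤ H ∧ ∀ x ξ, P.Nr ε₀ x ξ →
    ∀ q ∈ ball (0 : E2) 1, ‖P.gr x ξ q‖ ≤ H * ‖P.gr x ξ 0‖ := by
  obtain ⟨C₀, hC₀⟩ := hd 1 (by rw [one_mul]; exact b_lt P) 2 le_rfl
  set C := max C₀ 0 with hC
  have hC0 : 0 ≤ C := le_max_right _ _
  refine ⟨1 + C, by positivity, fun x ξ hN q hq1 => ?_⟩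
  set t := ‖P.gr x ξ 0‖ with ht
  have ht0 : 0 ≤ t := norm_nonneg _
  have hhess : ∀ w ∈ ball (0 : E2) 1, ‖hess (P.dl x ξ) w‖ ≤ C * t := by
    intro w hw
    have hTw := P.Af.closedBall_dT x (ball_subset_closedBall (ball_subset_ball one_le_two hw))
    have h6 := hC₀ x ξ hN w hw
    rw [Real.rpow_one] at h6
    have h7 : ContDiffAt ℝ 2 (P.dl x ξ) w := (dlq_contDiffAt P x ξ hTw).of_le
      (WithTop.coe_le_coe.2 (le_top : (2 : ℕ∞) ≤ ⊤))
    have h8 : DifferentiableAt ℝ (fderiv ℝ (P.dl x ξ)) w :=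
      (h7.fderiv_right (m := 1) (by norm_num)).differentiableAt (by norm_num)
    refine (norm_hess_le h8).trans (h6.trans ?_)
    gcongr
    exact le_max_left _ _
  have h6 : ‖P.gr x ξ q - P.gr x ξ 0‖ ≤ C * t * ‖q - 0‖ :=
    (convex_ball (0 : E2) 1).norm_image_sub_le_of_norm_fderiv_le (f := P.gr x ξ)
      (fun w hw => hess_diff (dlq_contDiffAt P x ξ (P.Af.closedBall_dT x
        (ball_subset_closedBall (ball_subset_ball one_le_two hw)))))
      (fun w hw => hhess w hw) (mem_ball_self one_pos) hq1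
  have h7 : ‖q - 0‖ ≤ 1 := by
    rw [sub_zero]
    exact (mem_ball_zero_iff.1 hq1).le
  have h8 : C * t * ‖q - 0‖ ≤ C * t := mul_le_of_le_one_right (by positivity) h7
  have h9 : ‖P.gr x ξ q‖ ≤ ‖P.gr x ξ 0‖ + ‖P.gr x ξ q - P.gr x ξ 0‖ := by
    simpa using norm_add_le (P.gr x ξ 0) (P.gr x ξ q - P.gr x ξ 0)
  linarith

/-- the crossings, seen from the leaf -/
theorem hqB {ε₀ : ℝ} (h0 : 0 < ε₀) (hd : P.T2d ε₀) : ∃ ε₁ > 0, ε₁ ≤ ε₀ ∧ H790.HqB P ε₁ := by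
  obtain ⟨ε, hε, K, hK, h⟩ := exists_hq P (ε := 1) one_pos
  obtain ⟨H, hH, hH'⟩ := gr_le P hd
  refine ⟨min ε ε₀, lt_min hε h0, min_le_right _ _, K * H, fun x ξ hN q hq => ?_⟩
  have hN1 : P.Nr ε x ξ := ⟨hN.1, hN.2.trans (min_le_left _ _)⟩
  have hN0 : P.Nr ε₀ x ξ := ⟨hN.1, hN.2.trans (min_le_right _ _)⟩
  obtain ⟨-, h2, -, -, h5, -⟩ := h x ξ hN1 q
    (ball_subset_closedBall (ball_subset_ball (by norm_num) hq))
  refine ⟨h2, h5.trans ?_⟩
  calc _ ≤ K * (H * ‖P.gr x ξ 0‖) := by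
        gcongr
        exact hH' x ξ hN0 q hq
    _ = _ := by ring

theorem Th_contAt {x : X} {ξ : B} {q : E2} (h : (x, q) ∈ P.Af.dT) :
    ContinuousAt (fun p : (X × B) × E2 => P.Th p.1.1 p.1.2 p.2) ((x, ξ), q) := by
  have h1 : ContinuousAt (fun p : X × E2 => P.Af.dsc p.1 p.2) (x, q) :=
    P.Af.dsc_jc.continuousOn.continuousAt (P.Af.isOpen_dT.mem_nhds h)
  have h2 : ContinuousAt (fun p : (X × B) × E2 => P.Af.dsc p.1.1 p.2) ((x, ξ), q) :=
    ContinuousAt.comp (g := fun p : X × E2 => P.Af.dsc p.1 p.2)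
      (f := fun p : (X × B) × E2 => ((p.1.1, p.2) : X × E2)) (x := ((x, ξ), q)) h1 (by fun_prop)
  have h3 : ContinuousAt (fun p : (X × B) × E2 => ((p.1, P.Af.dsc p.1.1 p.2) : (X × B) × E2))
      ((x, ξ), q) := continuousAt_fst.prodMk h2
  have h4 : ContinuousAt (fun p : (X × B) × E2 => P.Bu.en p.1.1 p.1.2 p.2)
      ((x, ξ), P.Af.dsc x q) := P.Bu.en_cont.continuousAt
    ((isOpen_univ.prod isOpen_ball).mem_nhds ⟨mem_univ _, P.Af.dsc_mem h⟩)
  exact ContinuousAt.comp (g := fun p : (X × B) × E2 => P.Bu.en p.1.1 p.1.2 p.2)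
    (f := fun p : (X × B) × E2 => ((p.1, P.Af.dsc p.1.1 p.2) : (X × B) × E2))
    (x := ((x, ξ), q)) h4 h3

/-- the points of the near leaves are near the points of the leaf -/
theorem exists_ch_near {ε : ℝ} (hε : 0 < ε) : ∃ ε₁ > 0, ∀ x ξ, P.Nr ε₁ x ξ →
    ∀ w ∈ closedBall (0 : E2) (3 / 2), P.Th x ξ w ≠ L.em x ∧
      ‖P.Af.ch x (P.Th x ξ w) - w‖ < ε := by
  refine H469.near_of P (R := fun x ξ => ∀ w ∈ closedBall (0 : E2) (3 / 2),
    P.Th x ξ w ≠ L.em x ∧ ‖P.Af.ch x (P.Th x ξ w) - w‖ < ε) ?_ ?_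
  · intro g x ξ h w hw
    have hT := P.Af.closedBall_dT x (closedBall_subset_closedBall (by norm_num) hw :
      w ∈ closedBall (0 : E2) 2)
    have h1 : P.Th (g • x) (g • ξ) w = g • P.Th x ξ w := by
      change P.Bu.en (g • x) (g • ξ) (P.Af.dsc (g • x) w) = g • P.Bu.en x ξ (P.Af.dsc x w)
      rw [P.Af.dsc_smul g hT, P.Bu.en_smul g x ξ _ (P.Af.dsc_mem hT)]
    obtain ⟨h2, h3⟩ := h w hw
    rw [h1, L.em_smul] at h2
    have h4 : P.Th x ξ w ≠ L.em x := fun h => h2 (by rw [h])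
    refine ⟨h4, ?_⟩
    rwa [h1, P.Af.ch_smul g x _ h4] at h3
  · intro x
    refine (isCompact_closedBall (0 : E2) (3 / 2)).eventually_forall_of_forall_eventually
      fun w hw => ?_
    have hT := P.Af.closedBall_dT x (closedBall_subset_closedBall (by norm_num) hw :
      w ∈ closedBall (0 : E2) 2)
    have c1 := Th_contAt P (ξ := L.em x) hT
    have c2 : ContinuousAt (fun p : (X × B) × E2 =>
        ((p.1.1, P.Th p.1.1 p.1.2 p.2) : X × B)) ((x, L.em x), w) :=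
      (continuous_fst.comp continuous_fst).continuousAt.prodMk c1
    have e0 : P.Th x (L.em x) w = P.Af.pt x w := Th_em P x hT
    have hne : P.Af.pt x w ≠ L.em x := P.Af.pt_ne x w
    have hop : IsOpen {p : X × B | p.2 ≠ L.em p.1} :=
      isOpen_ne_fun continuous_snd (L.em_cont.comp continuous_fst)
    have c3 : ContinuousAt (fun p : X × B => P.Af.ch p.1 p.2) (x, P.Af.pt x w) :=
      P.Af.ch_cont.continuousAt (hop.mem_nhds hne)
    have c4 : ContinuousAt (fun p : (X × B) × E2 => P.Af.ch p.1.1 (P.Th p.1.1 p.1.2 p.2))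
        ((x, L.em x), w) := by
      refine ContinuousAt.comp (g := fun p : X × B => P.Af.ch p.1 p.2)
        (f := fun p : (X × B) × E2 => ((p.1.1, P.Th p.1.1 p.1.2 p.2) : X × B))
        (x := ((x, L.em x), w)) ?_ c2
      simpa only [e0] using c3
    have c5 : ContinuousAt (fun p : (X × B) × E2 =>
        ‖P.Af.ch p.1.1 (P.Th p.1.1 p.1.2 p.2) - p.2‖) ((x, L.em x), w) :=
      (c4.sub continuousAt_snd).norm
    have e1 : ‖P.Af.ch x (P.Th x (L.em x) w) - w‖ < ε := by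
      rw [e0, P.Af.ch_pt, sub_self, norm_zero]
      exact hε
    have e2 : ∀ᶠ p : (X × B) × E2 in 𝓝 ((x, L.em x), w), P.Th p.1.1 p.1.2 p.2 ≠ L.em p.1.1 := by
      have := c2.eventually (hop.mem_nhds (by
        show P.Th x (L.em x) w ≠ L.em x
        rw [e0]
        exact hne))
      exact this
    filter_upwards [e2, c5.eventually_lt continuousAt_const e1] with p hp1 hp2 using ⟨hp1, hp2⟩

/-- the inverse of the crossing map -/
theorem exists_kq : ∃ ε₁ > 0, ∃ K, 0 ≤ K ∧ ∀ x ξ, P.Nr ε₁ x ξ →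
    ∀ w ∈ closedBall (0 : E2) (3 / 2), P.Th x ξ w ≠ L.em x ∧
      P.Af.ch x (P.Th x ξ w) ∈ closedBall (0 : E2) (7 / 4) ∧
      P.Hq x ξ (P.Af.ch x (P.Th x ξ w)) = w ∧
      ‖P.Af.ch x (P.Th x ξ w) - w‖ ≤ K * ‖P.gr x ξ w‖ := by
  obtain ⟨c, hc, hpos⟩ := sq_pos P
  obtain ⟨K₀, hK₀, hN⟩ := newton P
  obtain ⟨ε₁, hε₁, K, hK, h⟩ := exists_hq P (ε := 1) one_pos
  have hε : 0 < min (1 / 4) (c / (2 * (K₀ + 1))) := by positivity
  obtain ⟨ε₂, hε₂, h2⟩ := exists_ch_near P hε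
  refine ⟨min ε₁ ε₂, lt_min hε₁ hε₂, 2 / c, by positivity, fun x ξ hNr w hw => ?_⟩
  have hN1 : P.Nr ε₁ x ξ := ⟨hNr.1, hNr.2.trans (min_le_left _ _)⟩
  have hN2 : P.Nr ε₂ x ξ := ⟨hNr.1, hNr.2.trans (min_le_right _ _)⟩
  obtain ⟨h3, h4⟩ := h2 x ξ hN2 w hw
  set q := P.Af.ch x (P.Th x ξ w) with hq
  have hpt : P.Af.pt x q = P.Th x ξ w := P.Af.pt_ch x _ h3
  have h5 : ‖q - w‖ < 1 / 4 := h4.trans_le (min_le_left _ _)
  have h6 : ‖q - w‖ < c / (2 * (K₀ + 1)) := h4.trans_le (min_le_right _ _)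
  have hw' : ‖w‖ ≤ 3 / 2 := by simpa using hw
  have hq74 : q ∈ closedBall (0 : E2) (7 / 4) := by
    rw [mem_closedBall_zero_iff]
    have h7 : ‖q‖ ≤ ‖w‖ + ‖q - w‖ := by simpa using norm_add_le w (q - w)
    linarith
  have hq2 : q ∈ closedBall (0 : E2) 2 := closedBall_subset_closedBall (by norm_num) hq74
  have hw2 : w ∈ closedBall (0 : E2) 2 := closedBall_subset_closedBall (by norm_num) hw
  obtain ⟨-, -, -, -, -, huni⟩ := h x ξ hN1 q hq74
  refine ⟨h3, hq74, (huni w hw2 hpt.symm).symm, ?_⟩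
  have h8 := hN x ξ q hq2 w hw2 hpt.symm
  have h9 := norm_le_of_pos (hpos x q hq2) (w - q)
  have h10 : ‖hess (P.Sq x (L.em x) (P.Af.pt x q)) q (w - q)‖ ≤
      ‖hess (P.Sq x (L.em x) (P.Af.pt x q)) q (w - q) + P.gr x ξ w‖ + ‖P.gr x ξ w‖ := by
    have := norm_sub_le (hess (P.Sq x (L.em x) (P.Af.pt x q)) q (w - q) + P.gr x ξ w)
      (P.gr x ξ w)
    rwa [add_sub_cancel_right] at this
  have h11 : ‖w - q‖ = ‖q - w‖ := norm_sub_rev _ _
  rw [h11] at h8 h9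
  have h12 : K₀ * ‖q - w‖ ^ 2 ≤ c / 2 * ‖q - w‖ := by
    have h13 : K₀ * ‖q - w‖ ≤ c / 2 := by
      rw [lt_div_iff₀ (by positivity)] at h6
      nlinarith [norm_nonneg (q - w)]
    nlinarith [norm_nonneg (q - w)]
  rw [div_mul_eq_mul_div, le_div_iff₀ hc]
  linarith

/-- **the crossings, seen from the disc** -/
theorem kqB {ε₀ : ℝ} (h0 : 0 < ε₀) (hd : P.T2d ε₀) : ∃ ε₁ > 0, ε₁ ≤ ε₀ ∧ H790.KqB P ε₁ := by
  obtain ⟨ε, hε, K, hK, h⟩ := exists_kq P
  obtain ⟨H, hH, hH'⟩ := gr_le P hd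
  refine ⟨min ε ε₀, lt_min hε h0, min_le_right _ _, K * H, fun x ξ hN w hw => ?_⟩
  have hN1 : P.Nr ε x ξ := ⟨hN.1, hN.2.trans (min_le_left _ _)⟩
  have hN0 : P.Nr ε₀ x ξ := ⟨hN.1, hN.2.trans (min_le_right _ _)⟩
  obtain ⟨h1, -, -, h4⟩ := h x ξ hN1 w
    (ball_subset_closedBall (ball_subset_ball (by norm_num) hw))
  refine ⟨h1, h4.trans ?_⟩
  calc _ ≤ K * (H * ‖P.gr x ξ 0‖) := by
        gcongr
        exact hH' x ξ hN0 w hw
    _ = _ := by ring

end Vale.Agent.P207.N4.Y.H709
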